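import Vale.Agent.P067.Defs
import Vale.Agent.P067.Main

namespace Vale.Agent.Results.P067.AllDims

open Vale.Agent.P067

theorem result (d : ℕ) (hd : 1 ≤ d) :
    ∃ (D : ℕ) (ε : ℝ), 0 < ε ∧ ∃ (n : ℕ → ℕ) (X : ∀ k, AbstractSimplicialComplex (Fin (n k))),
      Filter.Tendsto (fun k => (facesOf (X k) 0).card) Filter.atTop Filter.atTop ∧
      ∀ k, IsPure (X k) d ∧ IsConn (X k) ∧ degree (X k) d ≤ D ∧
        IsCoboundaryExpander (X k) d ε := by
  obtain ⟨D, ε, hε, n, X, hn, hX⟩ := main d hd
  refine ⟨D, ε, hε, n, X, ?_, hX⟩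
  refine Filter.tendsto_atTop_mono (fun k => ?_) hn
  have h := Finset.card_le_card_of_injOn (s := (Finset.univ : Finset (Fin (n k))))
    (t := facesOf (X k) 0) (fun v => ({v} : Finset (Fin (n k))))
    (fun v _ => by
      simp only [facesOf, Finset.coe_filter, Finset.mem_univ, true_and, Set.mem_ofPred_eq]
      exact ⟨(X k).singleton_mem v, Finset.card_singleton v⟩)
    (fun a _ b _ h => Finset.singleton_injective h)
  simpa using h

end Vale.Agent.Results.P067.AllDims
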